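import Vale.Agent.P200B.KK

namespace Vale.Agent.P200B

open MvPolynomial TensorProduct

variable {K : Type*} [Field K] {n : ℕ}

theorem Bet_map_add {k V V' : Type*} [Field k] [AddCommGroup V] [Module k V] [AddCommGroup V']
    [Module k V'] (φ : V →ₗ[k] V') (W : Submodule k V) [FiniteDimensional k W] :
    Module.finrank k (W.map φ) + Module.finrank k (W ⊓ LinearMap.ker φ : Submodule k V) =
      Module.finrank k W := by
  have := LinearMap.finrank_range_add_finrank_ker (φ.domRestrict W)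
  rw [LinearMap.range_domRestrict, LinearMap.ker_domRestrict] at this
  rw [← this]
  congr 1
  rw [← Submodule.finrank_map_subtype_eq W, Submodule.map_comap_subtype]

/-- reduction of chains modulo the ideal -/
noncomputable def Bet_pi (I : Ideal (MvPolynomial (Fin n) K)) :
    (Finset (Fin n) → MvPolynomial (Fin n) K) →ₗ[K]
      (Finset (Fin n) → MvPolynomial (Fin n) K ⧸ I) :=
  (Ideal.Quotient.mkₐ K I).toLinearMap.compLeft (Finset (Fin n))

theorem Bet_pi_apply (I : Ideal (MvPolynomial (Fin n) K))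
    (c : Finset (Fin n) → MvPolynomial (Fin n) K) (A : Finset (Fin n)) :
    Bet_pi I c A = Ideal.Quotient.mk I (c A) := rfl

theorem Bet_pi_zero {I : Ideal (MvPolynomial (Fin n) K)}
    {c : Finset (Fin n) → MvPolynomial (Fin n) K} : Bet_pi I c = 0 ↔ ∀ A, c A ∈ I := by
  rw [funext_iff]
  exact forall_congr' fun A => Ideal.Quotient.eq_zero_iff_mem

theorem Bet_kd (I : Ideal (MvPolynomial (Fin n) K))
    (c : Finset (Fin n) → MvPolynomial (Fin n) K) :
    kdQ I (Bet_pi I c) = Bet_pi I (kd (mX K n) c) := by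
  funext B
  exact kd_map (Ideal.Quotient.mk I).toAddMonoidHom (mX K n)
    (fun i => LinearMap.mulLeft K (Ideal.Quotient.mk I (X i)))
    (fun i v => map_mul (Ideal.Quotient.mk I) (X i) v) c B

theorem Bet_kc (I : Ideal (MvPolynomial (Fin n) K)) (p d : ℕ) :
    kc I p (p + d) = (CH n (homogeneousSubmodule (Fin n) K d) p).map (Bet_pi I) := by
  ext z
  simp only [kc, Submodule.mem_pi, Set.mem_univ, forall_true_left, Nat.add_sub_cancel_left,
    Nat.le_add_right, and_true]
  constructor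
  · intro h
    have h' : ∀ A : Finset (Fin n), ∃ v, v ∈ homogeneousSubmodule (Fin n) K d ∧
        (A.card ≠ p → v = 0) ∧ Ideal.Quotient.mk I v = z A := fun A => by
      have := h A
      split_ifs at this with hA
      · obtain ⟨v, h1, h2⟩ := this
        exact ⟨v, h1, fun h3 => absurd hA h3, h2⟩
      · exact ⟨0, zero_mem _, fun _ => rfl, by rw [map_zero, (Submodule.mem_bot _).1 this]⟩
    choose c c1 c2 c3 using h'
    exact ⟨c, mem_CH.2 ⟨c1, c2⟩, funext c3⟩
  · rintro ⟨c, hc, rfl⟩ A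
    obtain ⟨c1, c2⟩ := mem_CH.1 hc
    split_ifs with hA
    · exact ⟨c A, c1 A, rfl⟩
    · rw [Submodule.mem_bot, Bet_pi_apply, c2 A hA, map_zero]

theorem Bet_bot (I : Ideal (MvPolynomial (Fin n) K)) {p j : ℕ} (h : j < p) : kc I p j = ⊥ := by
  rw [eq_bot_iff]
  intro z hz
  rw [Submodule.mem_bot]
  funext A
  have := (Submodule.mem_pi.1 hz) A (Set.mem_univ A)
  simp only [not_le.2 h, and_false, if_false] at this
  exact (Submodule.mem_bot _).1 this

theorem Bet_X (i : Fin n) {d : ℕ} : ∀ v ∈ homogeneousSubmodule (Fin n) K d,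
    mX K n i v ∈ homogeneousSubmodule (Fin n) K (d + 1) := fun v hv => by
  rw [add_comm]
  exact (isHomogeneous_X K i).mul hv

theorem Bet_hom {d p : ℕ} {c : Finset (Fin n) → MvPolynomial (Fin n) K}
    (hc : c ∈ CH n (homogeneousSubmodule (Fin n) K d) p) (B : Finset (Fin n)) :
    kd (mX K n) c B ∈ homogeneousSubmodule (Fin n) K (d + 1) := by
  rw [kd_apply]
  exact Submodule.sum_mem _ fun i _ => zsmul_mem (Bet_X i _ ((mem_CH.1 hc).1 _)) _

theorem Bet_ZZ (I : Ideal (MvPolynomial (Fin n) K)) (p d : ℕ) :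
    CH n (homogeneousSubmodule (Fin n) K d) p ⊓ LinearMap.ker (kdQ I ∘ₗ Bet_pi I) =
      ZZ (mX K n) (homogeneousSubmodule (Fin n) K d) (P200.ipart I (d + 1)) p := by
  ext c
  rw [mem_ZZ, Submodule.mem_inf, LinearMap.mem_ker, LinearMap.comp_apply, Bet_kd, Bet_pi_zero]
  exact and_congr_right fun hc => forall_congr' fun B =>
    ⟨fun h => ⟨h, Bet_hom hc B⟩, fun h => h.1⟩

theorem Bet_cyc (I : Ideal (MvPolynomial (Fin n) K)) (p d : ℕ) :
    kc I p (p + d) ⊓ LinearMap.ker (kdQ I) =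
      (ZZ (mX K n) (homogeneousSubmodule (Fin n) K d) (P200.ipart I (d + 1)) p).map
        (Bet_pi I) := by
  rw [← Bet_ZZ, Bet_kc]
  apply le_antisymm
  · rintro _ ⟨⟨c, hc, rfl⟩, h⟩
    exact ⟨c, ⟨hc, h⟩, rfl⟩
  · rintro _ ⟨c, ⟨hc, h⟩, rfl⟩
    exact ⟨⟨c, hc, rfl⟩, h⟩

theorem Bet_ker (I : Ideal (MvPolynomial (Fin n) K)) (p d : ℕ) :
    ZZ (mX K n) (homogeneousSubmodule (Fin n) K d) (P200.ipart I (d + 1)) p ⊓
      LinearMap.ker (Bet_pi I) = CH n (P200.ipart I d) p := by
  ext c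
  rw [Submodule.mem_inf, LinearMap.mem_ker, Bet_pi_zero, mem_ZZ]
  constructor
  · rintro ⟨⟨h1, -⟩, h2⟩
    obtain ⟨c1, c2⟩ := mem_CH.1 h1
    exact mem_CH.2 ⟨fun A => ⟨h2 A, c1 A⟩, c2⟩
  · intro h
    obtain ⟨c1, c2⟩ := mem_CH.1 h
    have h1 : c ∈ CH n (homogeneousSubmodule (Fin n) K d) p := mem_CH.2 ⟨fun A => (c1 A).2, c2⟩
    refine ⟨⟨h1, fun B => ⟨?_, Bet_hom h1 B⟩⟩, fun A => (c1 A).1⟩
    change kd (mX K n) c B ∈ I
    rw [kd_apply]
    exact Submodule.sum_mem _ fun i _ => zsmul_mem (I.mul_mem_left _ (c1 _).1) _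

theorem Bet_fin (p d : ℕ) : FiniteDimensional K (CH n (homogeneousSubmodule (Fin n) K d) p) :=
  (finrank_CH n _ p).1

theorem Bet_finZ (I : Ideal (MvPolynomial (Fin n) K)) (p d : ℕ) : FiniteDimensional K
    (ZZ (mX K n) (homogeneousSubmodule (Fin n) K d) (P200.ipart I (d + 1)) p) := by
  have := Bet_fin (K := K) (n := n) p d
  exact Submodule.finiteDimensional_of_le inf_le_left

theorem Bet_cyc_dim (I : Ideal (MvPolynomial (Fin n) K)) (p d : ℕ) :
    Module.finrank K ↥(kc I p (p + d) ⊓ LinearMap.ker (kdQ I)) +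
      n.choose p * Module.finrank K (P200.ipart I d) = zd I p d := by
  have := Bet_finZ I p d
  have h := Bet_map_add (Bet_pi I)
    (ZZ (mX K n) (homogeneousSubmodule (Fin n) K d) (P200.ipart I (d + 1)) p)
  rw [Bet_ker, (finrank_CH n _ p).2, ← Bet_cyc] at h
  exact h

theorem Bet_bd_dim (I : Ideal (MvPolynomial (Fin n) K)) (p d : ℕ) :
    Module.finrank K ((kc I p (p + d)).map (kdQ I)) + zd I p d = n.choose p * n.multichoose d := by
  have := Bet_fin (K := K) (n := n) p d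
  have h := Bet_map_add (kdQ I ∘ₗ Bet_pi I) (CH n (homogeneousSubmodule (Fin n) K d) p)
  rw [Bet_ZZ, (finrank_CH n _ p).2, P200.finrank_hom, Submodule.map_comp, ← Bet_kc] at h
  exact h

theorem Bet_le (I : Ideal (MvPolynomial (Fin n) K)) (p d : ℕ) :
    (kc I (p + 1) (p + 1 + d)).map (kdQ I) ≤ kc I p (p + (d + 1)) ⊓ LinearMap.ker (kdQ I) := by
  rw [Bet_kc, Bet_kc]
  rintro _ ⟨_, ⟨c, hc, rfl⟩, rfl⟩
  rw [Bet_kd]
  refine ⟨⟨_, kd_mem_CH (mX K n) (fun i => Bet_X i) hc, rfl⟩, ?_⟩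
  change kdQ I _ = 0
  rw [Bet_kd, kd_kd (mX K n) (fun i j v => mul_left_comm (X i) (X j) v), map_zero]

theorem Bet_eq (I : Ideal (MvPolynomial (Fin n) K)) (p d : ℕ)
    (h : (kc I (p + 1) (p + d)).map (kdQ I) ≤ kc I p (p + d) ⊓ LinearMap.ker (kdQ I)) :
    betti I p (p + d) + Module.finrank K ((kc I (p + 1) (p + d)).map (kdQ I)) =
      Module.finrank K ↥(kc I p (p + d) ⊓ LinearMap.ker (kdQ I)) := by
  have : FiniteDimensional K ↥(kc I p (p + d) ⊓ LinearMap.ker (kdQ I)) := by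
    have := Bet_finZ I p d
    rw [Bet_cyc]
    infer_instance
  rw [← (Submodule.submoduleOfEquivOfLe h).finrank_eq]
  exact Submodule.finrank_quotient_add_finrank _

theorem betti_lt (I : Ideal (MvPolynomial (Fin n) K)) {p j : ℕ} (h : j < p) : betti I p j = 0 := by
  have : Subsingleton ↥(kc I p j ⊓ LinearMap.ker (kdQ I)) := by
    rw [Bet_bot I h, bot_inf_eq]
    infer_instance
  have h2 := (Submodule.Quotient.mk_surjective
    (((kc I (p + 1) j).map (kdQ I)).submoduleOf (kc I p j ⊓ LinearMap.ker (kdQ I)))).subsingleton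
  exact Module.finrank_zero_of_subsingleton

theorem betti_zero (I : Ideal (MvPolynomial (Fin n) K)) (p : ℕ) :
    betti I p p + n.choose p * Module.finrank K (P200.ipart I 0) = zd I p 0 := by
  have h0 : (kc I (p + 1) (p + 0)).map (kdQ I) = ⊥ := by
    rw [Bet_bot I (by omega), Submodule.map_bot]
  have h1 := Bet_eq I p 0 (by rw [h0]; exact bot_le)
  rw [h0, finrank_bot, add_zero] at h1
  rw [← Bet_cyc_dim, ← h1]
  rfl

theorem betti_succ (I : Ideal (MvPolynomial (Fin n) K)) (p d : ℕ) :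
    betti I p (p + (d + 1)) + n.choose p * Module.finrank K (P200.ipart I (d + 1)) +
      n.choose (p + 1) * n.multichoose d = zd I p (d + 1) + zd I (p + 1) d := by
  have e : p + 1 + d = p + (d + 1) := by omega
  have h0 := Bet_le I p d
  have h2 := Bet_bd_dim I (p + 1) d
  rw [e] at h0 h2
  have h1 := Bet_eq I p (d + 1) h0
  have h3 := Bet_cyc_dim I p (d + 1)
  omega

theorem betti_le {I J : Ideal (MvPolynomial (Fin n) K)}
    (h : ∀ d, Module.finrank K (P200.ipart J d) = Module.finrank K (P200.ipart I d))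
    (hz : ∀ p d, zd I p d ≤ zd J p d) (p j : ℕ) : betti I p j ≤ betti J p j := by
  rcases lt_or_ge j p with h1 | h1
  · rw [betti_lt I h1]
    exact Nat.zero_le _
  obtain ⟨d, rfl⟩ := Nat.exists_eq_add_of_le h1
  rcases d with _ | d
  · have a1 := betti_zero I p
    have a2 := betti_zero J p
    have a3 := hz p 0
    rw [h] at a2
    rw [add_zero]
    omega
  · have a1 := betti_succ I p d
    have a2 := betti_succ J p d
    have a3 := hz p (d + 1)
    have a4 := hz (p + 1) d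
    rw [h] at a2
    omega

end Vale.Agent.P200B
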