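import Vale.Agent.P200B.Iso

namespace Vale.Agent.P200B

open MvPolynomial TensorProduct

variable {K D : Type*} [Field K] [DivisionRing D] [Algebra K D] {n : ℕ}

theorem cmp_ind (D : Type*) [DivisionRing D] [Algebra K D] {S ι α : Type*} [AddCommGroup S]
    [Module K S] [Fintype ι] [Fintype α] {w : ι → α → S} (hw : LinearIndependent K w) :
    LinearIndependent D (fun i A => (1 : D) ⊗ₜ[K] w i A : ι → α → D ⊗[K] S) := by
  classical
  have h := Fintype.linearIndependent_iff.1
    (Module.Flat.linearIndependent_one_tmul (S := D) hw)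
  refine Fintype.linearIndependent_iff.2 fun g hg => h g ?_
  apply (TensorProduct.piRight K K D fun _ : α => S).injective
  rw [map_zero, map_sum, ← hg]
  refine Finset.sum_congr rfl fun i _ => ?_
  funext A
  simp [smul_tmul']

theorem cmp_fin {D V : Type*} [DivisionRing D] [AddCommGroup V] [Module D V]
    (y : Fin n → V →ₗ[D] V) (U W : Submodule D V) [FiniteDimensional D U] (p : ℕ) :
    FiniteDimensional D (ZZ y U W p) := by
  have := (finrank_CH n U p).1
  exact Submodule.finiteDimensional_of_le (S₂ := CH n U p) inf_le_left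

theorem zd_le_x (D : Type*) [DivisionRing D] [Algebra K D] (I : Ideal (MvPolynomial (Fin n) K))
    (p d : ℕ) : zd I p d ≤ Module.finrank D
      (ZZ (fun i => rm ((1 : D) ⊗ₜ[K] (X i : MvPolynomial (Fin n) K))) (P200.Bd K D n d)
        ((P200.ipart I (d + 1)).baseChange D) p) := by
  have f1 := cmp_fin (mX K n) (homogeneousSubmodule (Fin n) K d) (P200.ipart I (d + 1)) p
  have f2 := cmp_fin (fun i => rm ((1 : D) ⊗ₜ[K] (X i : MvPolynomial (Fin n) K)))
    (P200.Bd K D n d) ((P200.ipart I (d + 1)).baseChange D) p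
  let b := Module.finBasis K
    (ZZ (mX K n) (homogeneousSubmodule (Fin n) K d) (P200.ipart I (d + 1)) p)
  have h1 := cmp_ind D (b.linearIndependent.map' (Submodule.subtype _) (Submodule.ker_subtype _))
  have h2 : ∀ i, (fun A => (1 : D) ⊗ₜ[K] (b i).1 A) ∈
      ZZ (fun i => rm ((1 : D) ⊗ₜ[K] (X i : MvPolynomial (Fin n) K))) (P200.Bd K D n d)
        ((P200.ipart I (d + 1)).baseChange D) p := fun i => by
    obtain ⟨a1, a2⟩ := mem_ZZ.1 (b i).2
    obtain ⟨a3, a4⟩ := mem_CH.1 a1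
    refine mem_ZZ.2 ⟨mem_CH.2 ⟨fun A => Submodule.tmul_mem_baseChange_of_mem _ (a3 A),
      fun A hA => by rw [a4 A hA, tmul_zero]⟩, fun B => ?_⟩
    have e := kd_map (D' := D) (TensorProduct.mk K D (MvPolynomial (Fin n) K) 1).toAddMonoidHom
      (mX K n) (fun i => rm ((1 : D) ⊗ₜ[K] (X i : MvPolynomial (Fin n) K)))
      (fun i v => by simp [mX, rm, mul_comm]) (b i).1 B
    have e' : kd (fun i => rm ((1 : D) ⊗ₜ[K] (X i : MvPolynomial (Fin n) K)))
      (fun A => (1 : D) ⊗ₜ[K] (b i).1 A) B = (1 : D) ⊗ₜ[K] kd (mX K n) (b i).1 B := e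
    rw [e']
    exact Submodule.tmul_mem_baseChange_of_mem _ (a2 B)
  have h3 : LinearIndependent D fun i => (⟨_, h2 i⟩ :
      ZZ (fun i => rm ((1 : D) ⊗ₜ[K] (X i : MvPolynomial (Fin n) K))) (P200.Bd K D n d)
        ((P200.ipart I (d + 1)).baseChange D) p) :=
    LinearIndependent.of_comp (Submodule.subtype _) h1
  simpa [zd] using h3.fintype_card_le_finrank

/-- change of frame -/
noncomputable def cmpT {S α : Type*} [Ring S] [Algebra K S] [Fintype α] (g : α → α → D) :
    (α → D ⊗[K] S) →ₗ[D] (α → D ⊗[K] S) :=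
  LinearMap.pi fun B => ∑ A, rm (g A B ⊗ₜ[K] (1 : S)) ∘ₗ LinearMap.proj A

theorem cmpT_apply {S α : Type*} [Ring S] [Algebra K S] [Fintype α] (g : α → α → D)
    (c : α → D ⊗[K] S) : cmpT g c = fun B => ∑ A, c A * (g A B ⊗ₜ[K] 1) := by
  funext B
  simp [cmpT, rm, LinearMap.sum_apply]

theorem cmpT_inv {S α : Type*} [Ring S] [Algebra K S] [Fintype α] [DecidableEq α]
    {g g' : α → α → D} (h : ∀ A B, ∑ C, g A C * g' C B = if A = B then 1 else 0)
    (c : α → D ⊗[K] S) : cmpT g' (cmpT g c) = c := by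
  funext B
  simp only [cmpT_apply, Finset.sum_mul, mul_assoc, Algebra.TensorProduct.tmul_mul_tmul, mul_one]
  rw [Finset.sum_comm]
  simp only [← Finset.mul_sum, ← sum_tmul, h]
  rw [Finset.sum_eq_single B]
  · simp [← Algebra.TensorProduct.one_def]
  · intro A _ hA
    simp [hA]
  · simp

theorem cmpT_mem {S α : Type*} [Ring S] [Algebra K S] [Fintype α] (g : α → α → D)
    {U : Submodule K S} {c : α → D ⊗[K] S} (hc : ∀ A, c A ∈ U.baseChange D) (B : α) :
    cmpT g c B ∈ U.baseChange D := by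
  rw [cmpT_apply]
  refine Submodule.sum_mem _ fun A _ => P200.bc_mul (q := Submodule.span K {1}) ?_ (hc A)
    (Submodule.tmul_mem_baseChange_of_mem _ (Submodule.mem_span_singleton_self _))
  intro x hx y hy
  obtain ⟨a, rfl⟩ := Submodule.mem_span_singleton.1 hy
  rw [mul_smul_comm, mul_one]
  exact U.smul_mem a hx

theorem zd_le_M (M : Fin n → D ⊗[K] MvPolynomial (Fin n) K) (hM : ∀ i j, Commute (M i) (M j))
    (h1 : ∀ i, M i ∈ P200.Bd K D n 1)
    (hs : ∀ k, (1 : D) ⊗ₜ[K] (X k : MvPolynomial (Fin n) K) ∈ Submodule.span D (Set.range M))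
    (I : Ideal (MvPolynomial (Fin n) K)) (p d : ℕ) : zd I p d ≤ Module.finrank D
      (ZZ (fun i => rm (M i)) (P200.Bd K D n d) ((P200.ipart I (d + 1)).baseChange D) p) := by
  obtain ⟨g, -, ⟨g', z', i1, i2⟩, hk⟩ := exists_iso M hM h1 hs
  have f2 := cmp_fin (fun i => rm (M i)) (P200.Bd K D n d)
    ((P200.ipart I (d + 1)).baseChange D) p
  refine (zd_le_x D I p d).trans (LinearMap.finrank_le_finrank_of_injective
    (f := (cmpT g').restrict fun c hc => ?_) fun c c' e => ?_)
  · obtain ⟨a1, a2⟩ := mem_ZZ.1 hc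
    obtain ⟨a3, a4⟩ := mem_CH.1 a1
    refine mem_ZZ.2 ⟨mem_CH.2 ⟨cmpT_mem g' a3, fun B hB => ?_⟩, fun B => ?_⟩
    · rw [cmpT_apply]
      refine Finset.sum_eq_zero fun A _ => ?_
      by_cases hA : A.card = p
      · rw [z' A B (by omega), zero_tmul, mul_zero]
      · rw [a4 A hA, zero_mul]
    · have e := hk (cmpT g' c)
      rw [← cmpT_apply, ← cmpT_apply, cmpT_inv i1] at e
      rw [← cmpT_inv i2 (kd (fun i => rm (M i)) (cmpT g' c)), ← e]
      exact cmpT_mem g' a2 B
  · have e' : cmpT g' c.1 = cmpT g' c'.1 := congrArg Subtype.val e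
    apply Subtype.ext
    rw [← cmpT_inv i1 c.1, e', cmpT_inv i1]

end Vale.Agent.P200B
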