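import Vale.Agent.P200B.Defs
import Vale.Agent.P200.Frame

namespace Vale.Agent.P200B

open MvPolynomial TensorProduct

/-- chains of homological degree `p` with values in `U` -/
def CH {D V : Type*} [Ring D] [AddCommGroup V] [Module D V] (n : ℕ) (U : Submodule D V) (p : ℕ) :
    Submodule D (Finset (Fin n) → V) :=
  Submodule.pi Set.univ fun A => if A.card = p then U else ⊥

/-- chains with values in `U` whose boundary has values in `W` -/
noncomputable def ZZ {D V : Type*} [Ring D] [AddCommGroup V] [Module D V] {n : ℕ}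
    (y : Fin n → V →ₗ[D] V) (U W : Submodule D V) (p : ℕ) : Submodule D (Finset (Fin n) → V) :=
  CH n U p ⊓ (Submodule.pi Set.univ fun _ => W).comap (kd y)

/-- multiplication by a variable -/
noncomputable def mX (K : Type*) [Field K] (n : ℕ) (i : Fin n) :
    MvPolynomial (Fin n) K →ₗ[K] MvPolynomial (Fin n) K := LinearMap.mulLeft K (X i)

/-- right multiplication as a left linear map -/
noncomputable def rm {K D S : Type*} [Field K] [Ring D] [Algebra K D] [Ring S] [Algebra K S]
    (m : D ⊗[K] S) : D ⊗[K] S →ₗ[D] D ⊗[K] S where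
  toFun x := x * m
  map_add' x y := add_mul x y m
  map_smul' d x := smul_mul_assoc d x m

/-- shift of exponents -/
noncomputable def sh (D : Type*) [Ring D] (n : ℕ) (i : Fin n) :
    ((Fin n →₀ ℕ) →₀ D) →ₗ[D] ((Fin n →₀ ℕ) →₀ D) :=
  Finsupp.lmapDomain D D (· + Finsupp.single i 1)

/-- the monomial ideal of a set of exponents -/
noncomputable abbrev mI (K : Type*) [Field K] {n : ℕ} (J : Set (Fin n →₀ ℕ)) :
    Ideal (MvPolynomial (Fin n) K) :=
  Ideal.span ((fun β => (monomial β 1 : MvPolynomial (Fin n) K)) '' J)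

/-- dimension of the relative cycles for an ideal -/
noncomputable def zd {K : Type*} [Field K] {n : ℕ} (I : Ideal (MvPolynomial (Fin n) K))
    (p d : ℕ) : ℕ :=
  Module.finrank K (ZZ (mX K n) (homogeneousSubmodule (Fin n) K d) (P200.ipart I (d + 1)) p)

section basic
variable {D V : Type*} [Ring D] [AddCommGroup V] [Module D V] {n : ℕ}

theorem kd_apply (y : Fin n → V →ₗ[D] V) (c : Finset (Fin n) → V) (B : Finset (Fin n)) :
    kd y c B = ∑ i ∈ Bᶜ, ((-1 : ℤ) ^ (B.filter (· < i)).card) • y i (c (insert i B)) := by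
  simp [kd, LinearMap.sum_apply]

theorem mem_CH {U : Submodule D V} {p : ℕ} {c : Finset (Fin n) → V} :
    c ∈ CH n U p ↔ (∀ A, c A ∈ U) ∧ ∀ A, A.card ≠ p → c A = 0 := by
  simp only [CH, Submodule.mem_pi, Set.mem_univ, forall_true_left]
  constructor
  · intro h
    refine ⟨fun A => ?_, fun A hA => by simpa [hA] using h A⟩
    by_cases hA : A.card = p
    · simpa [hA] using h A
    · have : c A = 0 := by simpa [hA] using h A
      rw [this]
      exact zero_mem _
  · rintro ⟨h1, h2⟩ A
    split_ifs with hA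
    · exact h1 A
    · exact (Submodule.mem_bot _).2 (h2 A hA)

theorem mem_ZZ {y : Fin n → V →ₗ[D] V} {U W : Submodule D V} {p : ℕ} {c : Finset (Fin n) → V} :
    c ∈ ZZ y U W p ↔ c ∈ CH n U p ∧ ∀ B, kd y c B ∈ W := by
  simp [ZZ, Submodule.mem_pi]

theorem kd_map {D' V' : Type*} [Ring D'] [AddCommGroup V'] [Module D' V'] (f : V →+ V')
    (y : Fin n → V →ₗ[D] V) (y' : Fin n → V' →ₗ[D'] V') (h : ∀ i v, f (y i v) = y' i (f v))
    (c : Finset (Fin n) → V) (B : Finset (Fin n)) :
    kd y' (fun A => f (c A)) B = f (kd y c B) := by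
  simp only [kd_apply, map_sum, map_zsmul, h]

end basic

end Vale.Agent.P200B
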