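import Mathlib

/-! Graded Betti numbers of `S ⧸ I` through the Koszul complex on the variables. -/

namespace Vale.Agent.P200B

open MvPolynomial

/-- The Koszul differential of a family `y` of operators on `V`. A chain is a function on
subsets `A` of the index set (the coefficient of `e_A`), and
`v e_A ↦ ∑ i ∈ A, (-1) ^ #{i' ∈ A | i' < i} (y i v) e_{A \ i}`. -/
noncomputable def kd {D V : Type*} [Ring D] [AddCommGroup V] [Module D V] {n : ℕ}
    (y : Fin n → V →ₗ[D] V) : (Finset (Fin n) → V) →ₗ[D] (Finset (Fin n) → V) :=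
  LinearMap.pi fun B => ∑ i ∈ Bᶜ,
    ((-1 : ℤ) ^ (B.filter (· < i)).card) • (y i ∘ₗ LinearMap.proj (insert i B))

variable {K : Type*} [Field K] {n : ℕ} (I : Ideal (MvPolynomial (Fin n) K))

/-- The Koszul differential of `x_1, …, x_n` on `S ⧸ I`. -/
noncomputable def kdQ : (Finset (Fin n) → MvPolynomial (Fin n) K ⧸ I) →ₗ[K]
    (Finset (Fin n) → MvPolynomial (Fin n) K ⧸ I) :=
  kd fun i => LinearMap.mulLeft K (Ideal.Quotient.mk I (X i))

/-- The degree `j` part of the `p`-th term of the Koszul complex of `S ⧸ I`: the sum over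
subsets `A` of size `p` of `(S ⧸ I)_{j - p} e_A`. -/
noncomputable def kc (p j : ℕ) : Submodule K (Finset (Fin n) → MvPolynomial (Fin n) K ⧸ I) :=
  Submodule.pi Set.univ fun A =>
    if A.card = p ∧ p ≤ j then
      (homogeneousSubmodule (Fin n) K (j - p)).map (Ideal.Quotient.mkₐ K I).toLinearMap
    else ⊥

/-- The graded Betti number `β_{p,j}(S ⧸ I)`: the dimension of cycles modulo boundaries. -/
noncomputable def betti (p j : ℕ) : ℕ :=
  Module.finrank K (↥(kc I p j ⊓ LinearMap.ker (kdQ I)) ⧸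
    ((kc I (p + 1) j).map (kdQ I)).submoduleOf (kc I p j ⊓ LinearMap.ker (kdQ I)))

end Vale.Agent.P200B
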