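import Vale.Agent.P200B.KK

namespace Vale.Agent.P200B

open MvPolynomial TensorProduct

/-- coordinates of a chain -/
noncomputable def grobCo {R V : Type*} [Ring R] [AddCommGroup V] [Module R V] {n : ℕ}
    (co : V →ₗ[R] ((Fin n →₀ ℕ) →₀ R)) :
    (Finset (Fin n) → V) →ₗ[R] ((Finset (Fin n) × (Fin n →₀ ℕ)) →₀ R) :=
  ∑ A : Finset (Fin n), Finsupp.lmapDomain R R (fun β => (A, β)) ∘ₗ co ∘ₗ LinearMap.proj A

theorem grobCo_apply {R V : Type*} [Ring R] [AddCommGroup V] [Module R V] {n : ℕ}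
    (co : V →ₗ[R] ((Fin n →₀ ℕ) →₀ R)) (c : Finset (Fin n) → V) (A : Finset (Fin n))
    (β : Fin n →₀ ℕ) : grobCo co c (A, β) = co (c A) β := by
  simp only [grobCo, LinearMap.sum_apply, Finsupp.finsetSum_apply, LinearMap.comp_apply,
    Finsupp.lmapDomain_apply, LinearMap.proj_apply]
  rw [Finset.sum_eq_single A]
  · exact Finsupp.mapDomain_apply (fun x y h => (Prod.ext_iff.1 h).2) _ β
  · intro B _ hB
    refine Finsupp.mapDomain_of_notMem_range _ _ ?_
    rintro ⟨x, hx⟩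
    exact hB (Prod.ext_iff.1 hx).1
  · simp

theorem grob_rank {R V Γ : Type*} [DivisionRing R] [AddCommGroup V] [Module R V] [LinearOrder Γ]
    {n : ℕ} (co : V →ₗ[R] ((Fin n →₀ ℕ) →₀ R)) (hco : Function.Injective co)
    (key : Finset (Fin n) × (Fin n →₀ ℕ) → Γ) (hkey : Function.Injective key)
    (Z : Submodule R (Finset (Fin n) → V)) (E : Finset (Fin n →₀ ℕ))
    (hE : ∀ c ∈ Z, ∀ A β, co (c A) β ≠ 0 → β ∈ E) :
    ∃ T : Finset (Finset (Fin n) × (Fin n →₀ ℕ)), T.card = Module.finrank R Z ∧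
      ∀ A β, (A, β) ∈ T ↔ ∃ c ∈ Z, co (c A) β ≠ 0 ∧
        ∀ B δ, co (c B) δ ≠ 0 → key (A, β) ≤ key (B, δ) := by
  classical
  have hinj : Function.Injective (grobCo co) := by
    intro c c' h
    funext A
    apply hco
    ext β
    rw [← grobCo_apply, ← grobCo_apply, h]
  have hle : Z.map (grobCo co) ≤
      Finsupp.supported R R ((Finset.univ ×ˢ E : Finset (Finset (Fin n) × (Fin n →₀ ℕ))) : Set _) := by
    rintro _ ⟨c, hc, rfl⟩ ⟨A, β⟩ h
    rw [Finset.mem_coe, Finsupp.mem_support_iff, grobCo_apply] at h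
    exact Finset.mem_coe.2 (Finset.mem_product.2 ⟨Finset.mem_univ _, hE c hc A β h⟩)
  haveI : FiniteDimensional R (Finsupp.supported R R
      ((Finset.univ ×ˢ E : Finset (Finset (Fin n) × (Fin n →₀ ℕ))) :
        Set (Finset (Fin n) × (Fin n →₀ ℕ)))) :=
    Module.Finite.equiv (Finsupp.supportedEquivFinsupp _).symm
  haveI : FiniteDimensional R (Z.map (grobCo co)) := Submodule.finiteDimensional_of_le hle
  let T := (Finset.univ ×ˢ E : Finset (Finset (Fin n) × (Fin n →₀ ℕ))).filter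
    fun a => ∃ w ∈ Z.map (grobCo co), w a ≠ 0 ∧ ∀ b ∈ w.support, key a ≤ key b
  have hT : ∀ a, a ∈ T ↔ ∃ w ∈ Z.map (grobCo co), w a ≠ 0 ∧ ∀ b ∈ w.support, key a ≤ key b := by
    intro a
    rw [Finset.mem_filter]
    refine ⟨fun h => h.2, fun h => ⟨?_, h⟩⟩
    obtain ⟨w, hw, h0, -⟩ := h
    exact hle hw (Finsupp.mem_support_iff.2 h0)
  refine ⟨T, ?_, fun A β => ?_⟩
  · rw [P200.card_lead key hkey _ T hT]
    exact (Submodule.equivMapOfInjective _ hinj Z).finrank_eq.symm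
  · rw [hT]
    constructor
    · rintro ⟨_, ⟨c, hc, rfl⟩, h0, hm⟩
      refine ⟨c, hc, by rwa [grobCo_apply] at h0, fun B δ h => hm _ ?_⟩
      rwa [Finsupp.mem_support_iff, grobCo_apply]
    · rintro ⟨c, hc, h0, hm⟩
      refine ⟨_, ⟨c, hc, rfl⟩, by rwa [grobCo_apply], ?_⟩
      rintro ⟨B, δ⟩ h
      rw [Finsupp.mem_support_iff, grobCo_apply] at h
      exact hm B δ h

/-- the exponent of a subset -/
noncomputable def grobE {n : ℕ} (A : Finset (Fin n)) : Fin n →₀ ℕ := ∑ i ∈ A, Finsupp.single i 1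

theorem grob_sub_add {n : ℕ} {δ : Fin n →₀ ℕ} {i : Fin n} (h : i ∈ δ.support) :
    δ - Finsupp.single i 1 + Finsupp.single i 1 = δ :=
  tsub_add_cancel_of_le (Finsupp.single_le_iff.2
    (Nat.one_le_iff_ne_zero.2 (Finsupp.mem_support_iff.1 h)))

theorem grob_insert {n : ℕ} {δ : Fin n →₀ ℕ} {i : Fin n} {B : Finset (Fin n)} (h : i ∈ δ.support)
    (hi : i ∉ B) : δ - Finsupp.single i 1 + grobE (insert i B) = δ + grobE B := by
  rw [grobE, Finset.sum_insert hi, ← add_assoc, grob_sub_add h, grobE]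

theorem grob_sh {D : Type*} [Ring D] {n : ℕ} (i : Fin n) (w : (Fin n →₀ ℕ) →₀ D)
    (δ : Fin n →₀ ℕ) :
    sh D n i w δ = if i ∈ δ.support then w (δ - Finsupp.single i 1) else 0 := by
  rw [sh, Finsupp.lmapDomain_apply]
  split_ifs with h
  · conv_lhs => rw [← grob_sub_add h]
    exact Finsupp.mapDomain_apply (add_left_injective _) w _
  · refine Finsupp.mapDomain_of_notMem_range _ _ ?_
    rintro ⟨x, rfl⟩
    simp at h

theorem grob_kd_ne {D : Type*} [Ring D] {n : ℕ} (c : Finset (Fin n) → (Fin n →₀ ℕ) →₀ D)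
    (B : Finset (Fin n)) (δ : Fin n →₀ ℕ) (h : kd (sh D n) c B δ ≠ 0) :
    ∃ i, i ∉ B ∧ i ∈ δ.support ∧ c (insert i B) (δ - Finsupp.single i 1) ≠ 0 := by
  rw [kd_apply, Finsupp.finsetSum_apply] at h
  obtain ⟨i, hi, h0⟩ := Finset.exists_ne_zero_of_sum_ne_zero h
  rw [Finsupp.smul_apply, grob_sh] at h0
  by_cases hs : i ∈ δ.support
  · rw [if_pos hs] at h0
    exact ⟨i, Finset.mem_compl.1 hi, hs, fun h1 => h0 (by rw [h1, smul_zero])⟩
  · rw [if_neg hs, smul_zero] at h0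
    exact absurd rfl h0

theorem grob {K D Γ : Type*} [Field K] [DivisionRing D] [Algebra K D] [LinearOrder Γ] {n : ℕ}
    (κ : (Fin n →₀ ℕ) → Γ) (hκ : Function.Injective κ)
    (hκa : ∀ β γ e, κ β ≤ κ γ → κ (β + e) ≤ κ (γ + e)) (W : Submodule D ((Fin n →₀ ℕ) →₀ D))
    (J : Set (Fin n →₀ ℕ))
    (hJ : ∀ w ∈ W, ∀ β, w β ≠ 0 → (∀ γ ∈ w.support, κ β ≤ κ γ) → β ∈ J) (p d : ℕ) :
    Module.finrank D (ZZ (sh D n) (Finsupp.supported D D (P200.expo n d : Set (Fin n →₀ ℕ))) W p) ≤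
      zd (mI K J) p d := by
  classical
  let key : Finset (Fin n) × (Fin n →₀ ℕ) → Γ ×ₗ Fin (Fintype.card (Finset (Fin n))) :=
    fun a => toLex (κ (a.2 + grobE a.1), Fintype.equivFin _ a.1)
  have hkey : Function.Injective key := by
    rintro ⟨A, β⟩ ⟨B, δ⟩ h
    have h1 := Prod.ext_iff.1 (toLex.injective h)
    obtain rfl : A = B := (Fintype.equivFin _).injective h1.2
    obtain rfl : β = δ := add_right_cancel (hκ h1.1)
    rfl
  have hkle : ∀ A β B δ, key (A, β) ≤ key (B, δ) → κ (β + grobE A) ≤ κ (δ + grobE B) :=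
    fun A β B δ h => Prod.Lex.monotone_fst _ _ h
  have hsup : ∀ c ∈ ZZ (sh D n) (Finsupp.supported D D (P200.expo n d : Set (Fin n →₀ ℕ))) W p,
      ∀ A β, c A β ≠ 0 → β ∈ P200.expo n d := fun c hc A β h =>
    (mem_CH.1 (mem_ZZ.1 hc).1).1 A (Finsupp.mem_support_iff.2 h)
  obtain ⟨T, hT, hT'⟩ := grob_rank (LinearMap.id : ((Fin n →₀ ℕ) →₀ D) →ₗ[D] _)
    Function.injective_id key hkey _ (P200.expo n d) hsup
  let co : MvPolynomial (Fin n) K →ₗ[K] ((Fin n →₀ ℕ) →₀ K) :=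
    (AddMonoidAlgebra.coeffLinearEquiv K).toLinearMap
  have hco : ∀ q β, co q β = coeff β q := fun _ _ => rfl
  obtain ⟨T', hS, hS'⟩ := grob_rank co (AddMonoidAlgebra.coeffLinearEquiv K).injective key hkey
    (ZZ (mX K n) (homogeneousSubmodule (Fin n) K d) (P200.ipart (mI K J) (d + 1)) p)
    (P200.expo n d) (fun c hc A β h => by
      have h1 : (c A).IsHomogeneous d := (mem_CH.1 (mem_ZZ.1 hc).1).1 A
      rw [P200.mem_expo]
      by_contra hne
      exact h (h1.coeff_eq_zero hne))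
  rw [zd, ← hT, ← hS]
  refine Finset.card_le_card ?_
  rintro ⟨A, β⟩ hA
  obtain ⟨c, hc, h0, hm⟩ := (hT' A β).1 hA
  simp only [LinearMap.id_apply] at h0 hm
  obtain ⟨lam, hlam⟩ : ∃ lam : Module.Dual K D, lam (c A β) ≠ 0 := by
    by_contra hn
    push Not at hn
    exact h0 ((Module.forall_dual_apply_eq_zero_iff K _).1 hn)
  set γ := β + grobE A with hγ
  let c' : Finset (Fin n) → MvPolynomial (Fin n) K := fun B =>
    monomial (γ - grobE B) (if γ - grobE B + grobE B = γ then lam (c B (γ - grobE B)) else 0)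
  have hc' : ∀ B δ, coeff δ (c' B) = if δ + grobE B = γ then lam (c B δ) else 0 := by
    intro B δ
    simp only [c', coeff_monomial]
    by_cases h : δ + grobE B = γ
    · have h1 : γ - grobE B = δ := by rw [← h, add_tsub_cancel_right]
      rw [if_pos h1, h1]
    · rw [if_neg h]
      split_ifs with h1 h2
      · exact absurd (h1 ▸ h2) h
      · rfl
      · rfl
  have hne : ∀ B δ, coeff δ (c' B) ≠ 0 → δ + grobE B = γ ∧ c B δ ≠ 0 := by
    intro B δ h
    rw [hc'] at h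
    split_ifs at h with h1
    · exact ⟨h1, fun h2 => h (by rw [h2, map_zero])⟩
    · exact absurd rfl h
  have hkd : ∀ B δ, coeff δ (kd (mX K n) c' B) =
      if δ + grobE B = γ then lam (kd (sh D n) c B δ) else 0 := by
    intro B δ
    rw [kd_apply, kd_apply, coeff_sum, Finsupp.finsetSum_apply, map_sum]
    have e : ∀ i ∈ Bᶜ, coeff δ (((-1 : ℤ) ^ (B.filter (· < i)).card) • mX K n i (c' (insert i B))) =
        if δ + grobE B = γ then
          lam ((((-1 : ℤ) ^ (B.filter (· < i)).card) • sh D n i (c (insert i B))) δ) else 0 := by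
      intro i hi
      rw [coeff_smul, Finsupp.smul_apply, map_zsmul, grob_sh, mX, LinearMap.mulLeft_apply,
        coeff_X_mul']
      by_cases hs : i ∈ δ.support
      · rw [if_pos hs, if_pos hs, hc', grob_insert hs (Finset.mem_compl.1 hi)]
        split_ifs
        · rfl
        · exact smul_zero _
      · rw [if_neg hs, if_neg hs, map_zero, smul_zero, ite_self]
    rw [Finset.sum_congr rfl e]
    split_ifs
    · rfl
    · exact Finset.sum_const_zero
  have hkd' : ∀ B δ, coeff δ (kd (mX K n) c' B) ≠ 0 → δ ∈ J ∧ δ.degree = d + 1 := by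
    intro B δ h
    rw [hkd] at h
    split_ifs at h with h1
    swap
    · exact absurd rfl h
    have h2 : kd (sh D n) c B δ ≠ 0 := fun h2 => h (by rw [h2, map_zero])
    constructor
    · refine hJ _ ((mem_ZZ.1 hc).2 B) δ h2 fun δ' hδ' => ?_
      obtain ⟨i, hi, hs, h3⟩ := grob_kd_ne c B δ' (Finsupp.mem_support_iff.1 hδ')
      have h4 := hkle _ _ _ _ (hm _ _ h3)
      rw [grob_insert hs hi, ← hγ] at h4
      by_contra hlt
      have h5 := hκa δ' δ (grobE B) (not_le.1 hlt).le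
      rw [h1] at h5
      have h6 : δ' + grobE B = δ + grobE B := by rw [h1]; exact hκ (le_antisymm h5 h4)
      exact hlt (le_of_eq (by rw [add_right_cancel h6]))
    · obtain ⟨i, -, hs, h3⟩ := grob_kd_ne c B δ h2
      have h4 := P200.mem_expo.1 (hsup c hc _ _ h3)
      rw [← grob_sub_add hs, map_add, h4, Finsupp.degree_single]
  refine (hS' A β).2 ⟨c', mem_ZZ.2 ⟨mem_CH.2 ⟨fun B => ?_, fun B hB => ?_⟩, fun B => ⟨?_, ?_⟩⟩,
    ?_, fun B δ h => hm B δ (hne B δ h).2⟩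
  · intro δ h
    have := P200.mem_expo.1 (hsup c hc _ _ (hne B δ h).2)
    rwa [Finsupp.degree_eq_weight_one] at this
  · ext δ
    rw [hc', (mem_CH.1 (mem_ZZ.1 hc).1).2 B hB]
    simp
  · change kd (mX K n) c' B ∈ mI K J
    rw [mem_ideal_span_monomial_image]
    exact fun δ hδ => ⟨δ, (hkd' B δ (mem_support_iff.1 hδ)).1, le_rfl⟩
  · intro δ h
    have := (hkd' B δ h).2
    rwa [Finsupp.degree_eq_weight_one] at this
  · rw [hco, hc', if_pos rfl]
    exact hlam

end Vale.Agent.P200B
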