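import Vale.Agent.P200B.Cmp
import Vale.Agent.P200B.Grob

namespace Vale.Agent.P200B

open MvPolynomial TensorProduct

variable {K D : Type*} [Field K] [DivisionRing D] [Algebra K D] {n : ℕ}

theorem frameB_tr {V V' : Type*} [AddCommGroup V] [Module D V] [AddCommGroup V'] [Module D V']
    (Ψ : V →ₗ[D] V') (y : Fin n → V →ₗ[D] V) (y' : Fin n → V' →ₗ[D] V')
    (h : ∀ i v, Ψ (y i v) = y' i (Ψ v)) (U U1 : Submodule D V) [FiniteDimensional D U]
    (U' W' : Submodule D V') (hU : ∀ x ∈ U', ∃ v ∈ U, Ψ v = x) (hy : ∀ i, ∀ v ∈ U, y i v ∈ U1)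
    (p : ℕ) :
    Module.finrank D (ZZ y' U' W' p) ≤ Module.finrank D (ZZ y U (U1 ⊓ W'.comap Ψ) p) := by
  have hfin : FiniteDimensional D (ZZ y U (U1 ⊓ W'.comap Ψ) p) := by
    have := (finrank_CH n U p).1
    exact Submodule.finiteDimensional_of_le (S₂ := CH n U p) inf_le_left
  refine le_trans (Submodule.finrank_mono (t := (ZZ y U (U1 ⊓ W'.comap Ψ) p).map
    (Ψ.compLeft (Finset (Fin n)))) ?_) (Submodule.finrank_map_le _ _)
  intro c hc
  obtain ⟨hc1, hc2⟩ := mem_ZZ.1 hc
  obtain ⟨hc3, hc4⟩ := mem_CH.1 hc1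
  choose v hv hv' using fun A => hU _ (hc3 A)
  have e : (fun A => Ψ (if A.card = p then v A else 0)) = c := by
    funext A
    split_ifs with hA
    · exact hv' A
    · rw [map_zero, hc4 A hA]
  have hmem : ∀ A : Finset (Fin n), (if A.card = p then v A else 0) ∈ U := by
    intro A
    split_ifs
    · exact hv A
    · exact zero_mem _
  refine ⟨fun A => if A.card = p then v A else 0,
    mem_ZZ.2 ⟨mem_CH.2 ⟨hmem, fun A hA => if_neg hA⟩, fun B => ⟨?_, ?_⟩⟩, e⟩
  · rw [kd_apply]
    exact Submodule.sum_mem _ fun i _ => zsmul_mem (hy i _ (hmem _)) _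
  · have := kd_map Ψ.toAddMonoidHom y y' h (fun A => if A.card = p then v A else 0) B
    simp only [LinearMap.toAddMonoidHom_coe] at this
    refine Submodule.mem_comap.2 ?_
    rw [← this, e]
    exact hc2 B

open P200 Module in
theorem frameB (M : Fin n → D ⊗[K] MvPolynomial (Fin n) K) (hM : ∀ i j, Commute (M i) (M j))
    (I : Ideal (MvPolynomial (Fin n) K)) (h1 : ∀ i, M i ∈ P200.Bd K D n 1)
    (hs : ∀ k, (1 : D) ⊗ₜ[K] (X k : MvPolynomial (Fin n) K) ∈ Submodule.span D (Set.range M))
    (c : ℕ) (b : Fin n → ℕ)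
    (hpow : ∀ i : Fin n, (i : ℕ) < c → ∃ u ∈ (P200.ipart I (b i + 1)).baseChange D,
      ∃ w : Fin n → D ⊗[K] MvPolynomial (Fin n) K, (∀ k, w k ∈ P200.Bd K D n (b i)) ∧
        M i ^ (b i + 1) = u + ∑ k ∈ Finset.univ.filter (fun k : Fin n => c ≤ k), w k * M k) :
    ∃ J : Set (Fin n →₀ ℕ), (∀ β ∈ J, ∀ i, β + Finsupp.single i 1 ∈ J) ∧
      (∀ i : Fin n, (i : ℕ) < c → Finsupp.single i (b i + 1) ∈ J) ∧
      (∀ d (T : Finset (Fin n →₀ ℕ)), (∀ β, β ∈ T ↔ β ∈ J ∧ β.degree = d) →
        T.card = Module.finrank K (P200.ipart I d)) ∧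
      ∀ p d, zd I p d ≤ zd (mI K J) p d := by
  classical
  let Ψ := Finsupp.linearCombination D (mono M hM)
  let m : MonomialOrder (Fin n) := MonomialOrder.lex
  let κ : (Fin n →₀ ℕ) → ℕ ×ₗ m.syn := fun β =>
    toLex (∑ k ∈ Finset.univ.filter (fun k : Fin n => c ≤ k), β k, m.toSyn β)
  have hκ : Function.Injective κ := by
    intro β γ h
    have := congrArg (fun x => (ofLex x).2) h
    exact m.toSyn.injective this
  have hκa : ∀ β γ e, κ β ≤ κ γ → κ (β + e) ≤ κ (γ + e) := by
    intro β γ e h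
    simp only [κ, Prod.Lex.toLex_le_toLex, Finsupp.add_apply, Finset.sum_add_distrib,
      map_add] at h ⊢
    rcases h with h | ⟨h, h'⟩
    · left; omega
    · right; exact ⟨by omega, by gcongr⟩
  let W : ℕ → Submodule D ((Fin n →₀ ℕ) →₀ D) := fun d =>
    Finsupp.supported D D (expo n d : Set (Fin n →₀ ℕ)) ⊓ ((ipart I d).baseChange D).comap Ψ
  have hsurj : ∀ d, ∀ y ∈ Bd K D n d,
      ∃ v ∈ Finsupp.supported D D (expo n d : Set (Fin n →₀ ℕ)), Ψ v = y := by
    intro d y hy
    have := Bd_le_span M hM hs d hy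
    rw [Finsupp.span_image_eq_map_linearCombination] at this
    exact this
  have hinj : ∀ d, Disjoint (Finsupp.supported D D (expo n d : Set (Fin n →₀ ℕ)))
      (LinearMap.ker Ψ) := by
    intro d
    rw [← linearIndepOn_iff_disjoint]
    have e : Set.range (fun x : (expo n d : Set (Fin n →₀ ℕ)) => mono M hM x) =
        mono M hM '' (expo n d : Set (Fin n →₀ ℕ)) := by ext; simp
    rw [LinearIndepOn, linearIndependent_iff_card_eq_finrank_span, Set.finrank, e]
    have e2 : Submodule.span D (mono M hM '' (expo n d : Set (Fin n →₀ ℕ))) = Bd K D n d := by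
      refine le_antisymm ?_ (Bd_le_span M hM hs d)
      rw [Submodule.span_le]
      rintro _ ⟨β, hβ, rfl⟩
      have := mono_mem M hM h1 β
      rwa [mem_expo.mp hβ] at this
    rw [e2, finrank_bc, finrank_hom, ← card_expo]
    simp
  have hshift : ∀ d i, ∀ v ∈ Finsupp.supported D D (expo n d : Set (Fin n →₀ ℕ)),
      v.mapDomain (· + Finsupp.single i 1) ∈
        Finsupp.supported D D (expo n (d + 1) : Set (Fin n →₀ ℕ)) := by
    intro d i v hv γ hγ
    obtain ⟨δ, hδ, rfl⟩ := Finset.mem_image.mp (Finsupp.mapDomain_support hγ)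
    have := mem_expo.mp (hv hδ)
    rw [Finset.mem_coe, mem_expo, map_add, this, Finsupp.degree_single]
  refine ⟨{β | ∃ w ∈ W β.degree, w β ≠ 0 ∧ ∀ γ ∈ w.support, κ β ≤ κ γ}, ?_, ?_, ?_, ?_⟩
  · rintro β ⟨w, ⟨hw1, hw2⟩, hw0, hwm⟩ i
    refine ⟨w.mapDomain (· + Finsupp.single i 1), ?_, ?_, ?_⟩
    · rw [map_add, Finsupp.degree_single]
      refine ⟨hshift _ i w hw1, ?_⟩
      refine Submodule.mem_comap.mpr ?_
      rw [lc_shift]
      exact bc_mul (p := ipart I β.degree) (r := ipart I (β.degree + 1))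
        (fun x hx y hy => ⟨Ideal.mul_mem_right _ _ hx.1, IsHomogeneous.mul hx.2 hy⟩) hw2 (h1 i)
    · rwa [Finsupp.mapDomain_apply (add_left_injective _)]
    · intro γ hγ
      obtain ⟨δ, hδ, rfl⟩ := Finset.mem_image.mp (Finsupp.mapDomain_support hγ)
      exact hκa _ _ _ (hwm δ hδ)
  · intro i hi
    obtain ⟨u, hu, w, hw, e⟩ := hpow i hi
    choose v hv hv' using fun k => hsurj _ _ (hw k)
    let r := ∑ k ∈ Finset.univ.filter (fun k : Fin n => c ≤ k),
      (v k).mapDomain (· + Finsupp.single k 1)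
    have hr : ∀ γ, r γ ≠ 0 → 0 < ∑ k ∈ Finset.univ.filter (fun k : Fin n => c ≤ k), γ k := by
      intro γ hγ
      rw [Finsupp.finsetSum_apply] at hγ
      obtain ⟨k, hk, hγ⟩ := Finset.exists_ne_zero_of_sum_ne_zero hγ
      obtain ⟨δ, _, rfl⟩ :=
        Finset.mem_image.mp (Finsupp.mapDomain_support (Finsupp.mem_support_iff.mpr hγ))
      refine lt_of_lt_of_le ?_ (Finset.single_le_sum (fun _ _ => Nat.zero_le _) hk)
      simp
    have h0 : ∑ k ∈ Finset.univ.filter (fun k : Fin n => c ≤ k),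
        (Finsupp.single i (b i + 1)) k = 0 := by
      refine Finset.sum_eq_zero fun k hk => Finsupp.single_eq_of_ne ?_
      rintro rfl
      simp at hk; omega
    refine ⟨Finsupp.single (Finsupp.single i (b i + 1)) 1 - r, ?_, ?_, ?_⟩
    · rw [Finsupp.degree_single]
      refine ⟨sub_mem (Finsupp.single_mem_supported _ _ (by simp [mem_expo]))
        (Submodule.sum_mem _ fun k _ => hshift _ k _ (hv k)), ?_⟩
      refine Submodule.mem_comap.mpr ?_
      rw [map_sub, map_sum]
      simp only [Ψ, lc_shift, Finsupp.linearCombination_single, one_smul, mono_single]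
      simp only [Ψ] at hv'
      simp only [hv', e, add_sub_cancel_right]
      exact hu
    · have : r (Finsupp.single i (b i + 1)) = 0 := by
        by_contra hne
        have := hr _ hne
        omega
      rw [Finsupp.sub_apply, this, Finsupp.single_eq_same, sub_zero]
      exact one_ne_zero
    · intro γ hγ
      by_cases hγ' : γ = Finsupp.single i (b i + 1)
      · rw [hγ']
      · have : r γ ≠ 0 := by
          intro h
          apply Finsupp.mem_support_iff.mp hγ
          rw [Finsupp.sub_apply, h, Finsupp.single_eq_of_ne hγ', sub_zero]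
        have := hr _ this
        simp only [κ, Prod.Lex.toLex_le_toLex]
        left; omega
  · intro d T hT
    have hfin : FiniteDimensional D (W d) := by
      have : FiniteDimensional D (Finsupp.supported D D (expo n d : Set (Fin n →₀ ℕ))) :=
        Module.Finite.equiv (Finsupp.supportedEquivFinsupp _).symm
      exact Submodule.finiteDimensional_of_le inf_le_left
    rw [card_lead κ hκ (W d) T, ← finrank_bc (D := D)]
    · have e : (W d).map Ψ = (ipart I d).baseChange D := by
        apply le_antisymm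
        · rintro _ ⟨w, hw, rfl⟩
          exact hw.2
        · intro y hy
          obtain ⟨v, hv, rfl⟩ := hsurj d y (Submodule.baseChange_mono _ inf_le_right hy)
          exact ⟨v, ⟨hv, hy⟩, rfl⟩
      rw [← e]
      have hi : Function.Injective (Ψ.domRestrict (W d)) := by
        rw [injective_iff_map_eq_zero]
        intro w hw
        exact Subtype.ext (Submodule.disjoint_def.mp (hinj d) w w.2.1 hw)
      rw [← LinearMap.range_domRestrict, LinearMap.finrank_range_of_inj hi]
    · intro β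
      rw [hT]
      constructor
      · rintro ⟨h, rfl⟩
        exact h
      · rintro ⟨w, hw, hw0, hwm⟩
        have : β.degree = d := mem_expo.mp (hw.1 (Finsupp.mem_support_iff.mpr hw0))
        subst this
        exact ⟨⟨w, hw, hw0, hwm⟩, rfl⟩
  · intro p d
    have : FiniteDimensional D (Finsupp.supported D D (expo n d : Set (Fin n →₀ ℕ))) :=
      Module.Finite.equiv (Finsupp.supportedEquivFinsupp _).symm
    refine (zd_le_M M hM h1 hs I p d).trans ((frameB_tr Ψ (sh D n) (fun i => rm (M i))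
      (fun i v => lc_shift M hM i v) _
      (Finsupp.supported D D (expo n (d + 1) : Set (Fin n →₀ ℕ))) _ _ (hsurj d)
      (fun i v hv => hshift d i v hv) p).trans ?_)
    refine grob κ hκ hκa (W (d + 1)) _ ?_ p d
    intro w hw β hw0 hwm
    have hβ : β.degree = d + 1 := mem_expo.mp (hw.1 (Finsupp.mem_support_iff.mpr hw0))
    exact ⟨w, hβ ▸ hw, hw0, hwm⟩

end Vale.Agent.P200B
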