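import Vale.Agent.P200B.Lin

namespace Vale.Agent.P200B

open MvPolynomial TensorProduct

theorem iso_inv {D T : Type*} [DivisionRing D] [Fintype T] [DecidableEq T] (r : T → ℕ)
    (g : T → T → D) (h0 : ∀ A B, r A ≠ r B → g A B = 0)
    (hg : ∀ v : T → D, (∀ B, ∑ A, v A * g A B = 0) → v = 0) :
    ∃ g' : T → T → D, (∀ A B, r A ≠ r B → g' A B = 0) ∧
      (∀ A B, ∑ C, g' A C * g C B = if A = B then 1 else 0) ∧
      ∀ A B, ∑ C, g A C * g' C B = if A = B then 1 else 0 := by
  let φ : (T → D) →ₗ[D] (T → D) := Fintype.linearCombination D g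
  have hφ : ∀ u l, φ u l = ∑ a, u a * g a l := by
    intro u l; simp [φ, Fintype.linearCombination_apply]
  have hinj : Function.Injective φ := by
    rw [injective_iff_map_eq_zero]
    exact fun u hu => hg u fun B => by rw [← hφ, hu]; rfl
  choose g' hg' using fun A => LinearMap.injective_iff_surjective.mp hinj (Pi.single A 1)
  have h1 : ∀ A B, ∑ C, g' A C * g C B = if A = B then 1 else 0 := fun A B => by
    rw [← hφ, hg', Pi.single_apply]; simp [eq_comm]
  refine ⟨g', fun A B hAB => ?_, h1, fun A B => ?_⟩
  · have := hg (fun C => if r A = r C then 0 else g' A C) fun E => by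
      by_cases hE : r A = r E
      · refine Finset.sum_eq_zero fun C _ => ?_
        split_ifs with h
        · exact zero_mul _
        · rw [h0 C E fun h' => h (hE.trans h'.symm), mul_zero]
      · rw [← (if_neg fun h => hE (congrArg r h) : (if A = E then (1 : D) else 0) = 0), ← h1]
        refine Finset.sum_congr rfl fun C _ => ?_
        split_ifs with h
        · rw [h0 C E fun h' => hE (h.trans h'), mul_zero, mul_zero]
        · rfl
    simpa [hAB] using congrFun this B
  · have := hg (fun B => ∑ C, g A C * g' C B - if A = B then 1 else 0) fun E => by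
      simp only [sub_mul, Finset.sum_sub_distrib, Finset.sum_mul, mul_assoc]
      rw [Finset.sum_comm]
      simp [← Finset.mul_sum, h1]
    exact sub_eq_zero.1 (congrFun this B)

variable {K D : Type*} [Field K] [DivisionRing D] [Algebra K D] {n : ℕ}

theorem iso_lin {S : Type*} [Ring S] [Algebra K S] (m : Fin n → D ⊗[K] S)
    (c : Finset (Fin n) → D ⊗[K] S) (r : Finset (Fin n) → Finset (Fin n) → D ⊗[K] S)
    (B : Finset (Fin n)) : kd (fun i => rm (m i)) (fun B => ∑ A, c A * r A B) B =
      ∑ A, c A * kd (fun i => rm (m i)) (r A) B := by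
  simp only [kd_apply, rm, LinearMap.coe_mk, AddHom.coe_mk, Finset.sum_mul, Finset.mul_sum,
    Finset.smul_sum, mul_smul_comm, mul_assoc]
  exact Finset.sum_comm

theorem iso_ext {S : Type*} [Ring S] [Algebra K S] (x m : Fin n → D ⊗[K] S)
    (g : Finset (Fin n) → Finset (Fin n) → D ⊗[K] S) (c : Finset (Fin n) → D ⊗[K] S)
    (h : ∀ A, c A ≠ 0 → ∀ B, kd (fun i => rm (x i)) (g A) B =
      ∑ E, kd (fun i => rm (m i)) (Pi.single A 1) E * g E B) (B : Finset (Fin n)) :
    kd (fun i => rm (x i)) (fun B => ∑ A, c A * g A B) B =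
      ∑ E, kd (fun i => rm (m i)) c E * g E B := by
  have hc : c = fun B => ∑ A, c A * (Pi.single A 1 : Finset (Fin n) → D ⊗[K] S) B := by
    funext B
    simp [Pi.single_apply]
  rw [iso_lin]
  conv_rhs => rw [hc]
  simp only [iso_lin, Finset.sum_mul]
  rw [Finset.sum_comm]
  refine Finset.sum_congr rfl fun A _ => ?_
  by_cases hA : c A = 0
  · simp [hA]
  · simp only [h A hA, Finset.mul_sum, mul_assoc]

theorem iso_indep {T : Type*} (ψ : T → Fin n →₀ ℕ) (hψ : Function.Injective ψ) :
    LinearIndependent D fun t =>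
      ((1 : D) ⊗ₜ[K] (monomial (ψ t) 1 : MvPolynomial (Fin n) K)) := by
  have := (Algebra.TensorProduct.basis D (basisMonomials (Fin n) K)).linearIndependent.comp ψ hψ
  simpa [Function.comp_def, Algebra.TensorProduct.basis_apply] using this

theorem exists_iso (M : Fin n → D ⊗[K] MvPolynomial (Fin n) K) (hM : ∀ i j, Commute (M i) (M j))
    (h1 : ∀ i, M i ∈ P200.Bd K D n 1)
    (hs : ∀ k, (1 : D) ⊗ₜ[K] (X k : MvPolynomial (Fin n) K) ∈ Submodule.span D (Set.range M)) :
    ∃ g : Finset (Fin n) → Finset (Fin n) → D, (∀ A B, A.card ≠ B.card → g A B = 0) ∧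
      (∃ g' : Finset (Fin n) → Finset (Fin n) → D, (∀ A B, A.card ≠ B.card → g' A B = 0) ∧
        (∀ A B, ∑ C, g' A C * g C B = if A = B then 1 else 0) ∧
        ∀ A B, ∑ C, g A C * g' C B = if A = B then 1 else 0) ∧
      ∀ c : Finset (Fin n) → D ⊗[K] MvPolynomial (Fin n) K,
        kd (fun i => rm ((1 : D) ⊗ₜ[K] (X i : MvPolynomial (Fin n) K)))
            (fun B => ∑ A, c A * (g A B ⊗ₜ[K] 1)) =
          fun B => ∑ A, kd (fun i => rm (M i)) c A * (g A B ⊗ₜ[K] 1) := by
  set x : Fin n → D ⊗[K] MvPolynomial (Fin n) K := fun i => (1 : D) ⊗ₜ[K] X i with hx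
  have hxi : LinearIndependent D x :=
    iso_indep (fun i => Finsupp.single i 1) (Finsupp.single_left_injective one_ne_zero)
  have hMi : LinearIndependent D M := by
    rw [linearIndependent_iff_card_le_finrank_span]
    have : FiniteDimensional D (Submodule.span D (Set.range M)) :=
      FiniteDimensional.span_of_finite D (Set.finite_range M)
    rw [← finrank_span_eq_card hxi]
    exact Submodule.finrank_mono (Submodule.span_le.2 (Set.range_subset_iff.2 hs))
  let ψ : Sym2 (Fin n) → Fin n →₀ ℕ :=
    Sym2.lift ⟨fun i j => Finsupp.single i 1 + Finsupp.single j 1, fun _ _ => add_comm _ _⟩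
  have hψ : Function.Injective ψ := by
    intro s t
    induction s using Sym2.ind
    induction t using Sym2.ind
    intro h
    simp only [ψ, Sym2.lift_mk] at h
    rw [Finsupp.single_add_single_eq_single_add_single one_ne_zero one_ne_zero] at h
    rw [Sym2.eq_iff]
    omega
  have hB : P200.Bd K D n 1 = Submodule.span D (Set.range x) := by
    rw [P200.Bd, homogeneousSubmodule_one_eq_span_X, Submodule.baseChange_span, ← Set.range_comp]
    rfl
  have hsing : ∀ (A : Finset (Fin n)), (Pi.single A 1 : Finset (Fin n) → _) ∈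
      CH n (P200.Bd K D n 0) A.card := fun A => mem_CH.2 ⟨fun B => by
        rw [Pi.single_apply]
        split_ifs
        · exact Submodule.tmul_mem_baseChange_of_mem _ (isHomogeneous_one _ _)
        · exact zero_mem _, fun B hB => Pi.single_eq_of_ne (fun h => hB (by rw [h])) _⟩
  have hkd : ∀ {m} {A : Finset (Fin n)}, A.card = m + 1 →
      kd (fun i => rm (M i)) (Pi.single A 1) ∈ CH n (P200.Bd K D n 1) m := fun {m A} hA =>
    kd_mem_CH _ (fun i v hv => P200.bc_mul (fun a ha b hb => IsHomogeneous.mul ha hb) hv (h1 i))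
      (hA ▸ hsing A)
  have key : ∀ m : ℕ, ∃ g : Finset (Fin n) → Finset (Fin n) → D,
      (∀ A B, A.card ≠ B.card → g A B = 0) ∧ (∀ v : Finset (Fin n) → D,
        (∀ B, ∑ A, v A * g A B = 0) → v = 0) ∧ ∀ A, A.card ≤ m → ∀ B,
        kd (fun i => rm (x i)) (fun B => g A B ⊗ₜ[K] 1) B =
          ∑ E, kd (fun i => rm (M i)) (Pi.single A 1) E * (g E B ⊗ₜ[K] 1) := by
    intro m
    induction m with
    | zero =>
      refine ⟨fun A B => if A = B then 1 else 0, fun A B h => if_neg fun h' => h (by rw [h']),
        fun v hv => funext fun B => by simpa using hv B, fun A hA B => ?_⟩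
      have h0 : A.card = 0 := by omega
      rw [kd_zero_deg (c := Pi.single A 1) _ (h0 ▸ hsing A), kd_zero_deg (U := ⊤) _ (mem_CH.2 ⟨fun _ => trivial,
        fun E hE => by
          beta_reduce
          rw [if_neg fun h : A = E => hE (h ▸ h0), zero_tmul]⟩)]
      simp
    | succ m ih =>
      obtain ⟨g, g0, g1, g2⟩ := ih
      obtain ⟨g', -, -, g3⟩ := iso_inv Finset.card g g0 g1
      have hv : ∀ A : Finset (Fin n), A.card = m + 1 → ∃ v : Finset (Fin n) → D,
          (∀ B, B.card ≠ m + 1 → v B = 0) ∧ ∀ B, kd (fun i => rm (x i)) (fun B => v B ⊗ₜ[K] 1) B =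
            ∑ E, kd (fun i => rm (M i)) (Pi.single A 1) E * (g E B ⊗ₜ[K] 1) := by
        intro A hA
        obtain ⟨c1, c2⟩ := mem_CH.1 (hkd hA)
        obtain ⟨v, v1, v2⟩ := lin_exact x hxi (fun i => rm (x i)) _ (iso_indep (K := K) ψ hψ)
          (fun i j => by simp [rm, hx, ψ, X, add_comm]) (p := m)
          (c := fun B => ∑ E, kd (fun i => rm (M i)) (Pi.single A 1) E * (g E B ⊗ₜ[K] 1))
          (mem_CH.2 ⟨fun B => hB ▸ Submodule.sum_mem _ fun E _ => P200.bc_mul
            (q := homogeneousSubmodule (Fin n) K 0) (fun a ha b hb => IsHomogeneous.mul ha hb) (c1 E)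
            (Submodule.tmul_mem_baseChange_of_mem _ (isHomogeneous_one _ _)),
            fun B hB' => Finset.sum_eq_zero fun E _ => by
              by_cases hE : E.card = m
              · rw [g0 E B (hE ▸ Ne.symm hB'), zero_tmul, mul_zero]
              · rw [c2 E hE, zero_mul]⟩)
          (funext fun B => by
            rw [iso_ext x M _ _ fun E hE => g2 E (by_contra fun h => hE (c2 E (by omega))),
              kd_kd _ fun i j v => by simp [rm, mul_assoc, (hM i j).eq]]
            simp)
        refine ⟨v, v1, fun B => ?_⟩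
        rw [v2, kd_apply]
        exact Finset.sum_congr rfl fun i _ => by rw [P200.smul_eq_tmul_mul]; rfl
      choose! v v1 v2 using hv
      have hrow : ∀ (c : Finset (Fin n) → D ⊗[K] MvPolynomial (Fin n) K),
          (∀ E, E.card = m + 1 → c E = 0) → ∀ B,
          ∑ E, c E * ((if E.card = m + 1 then v E else g E) B ⊗ₜ[K] 1) =
            ∑ E, c E * (g E B ⊗ₜ[K] 1) := fun c hc B => Finset.sum_congr rfl fun E _ => by
        split_ifs with h
        · rw [hc E h, zero_mul, zero_mul]
        · rfl
      have hch : ∀ A : Finset (Fin n), A.card ≤ m + 1 → ∀ B, kd (fun i => rm (x i))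
          (fun B => (if A.card = m + 1 then v A else g A) B ⊗ₜ[K] 1) B =
          ∑ E, kd (fun i => rm (M i)) (Pi.single A 1) E *
            ((if E.card = m + 1 then v E else g E) B ⊗ₜ[K] 1) := by
        intro A hA B
        rw [hrow]
        · split_ifs with h
          · exact v2 A h B
          · exact g2 A (by omega) B
        · intro E hE
          rcases hA' : A.card with _ | l
          · rw [kd_zero_deg _ (hA' ▸ hsing A)]; rfl
          · exact (mem_CH.1 (hkd hA')).2 E (by omega)
      refine ⟨fun A => if A.card = m + 1 then v A else g A, fun A B h => ?_, fun u hu => ?_, hch⟩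
      · beta_reduce
        split_ifs with hA
        · exact v1 A hA B (hA ▸ h.symm)
        · exact g0 A B h
      · have u1 := g1 (fun A => if A.card = m + 1 then 0 else u A) fun B => by
          by_cases hB' : B.card = m + 1
          · refine Finset.sum_eq_zero fun A _ => ?_
            split_ifs with hA
            · exact zero_mul _
            · rw [g0 A B (hB' ▸ hA), mul_zero]
          · refine (Finset.sum_congr rfl fun A _ => ?_).trans (hu B)
            beta_reduce
            split_ifs with hA
            · rw [v1 A hA B hB', mul_zero, zero_mul]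
            · rfl
        have u2 : ∀ A, A.card ≠ m + 1 → u A = 0 := fun A hA => by simpa [hA] using congrFun u1 A
        have u3 : (fun A => u A ⊗ₜ[K] (1 : MvPolynomial (Fin n) K)) ∈ CH (D := D) n ⊤ (m + 1) :=
          mem_CH.2 ⟨fun _ => trivial, fun A hA => by rw [u2 A hA, zero_tmul]⟩
        have u4 : ∀ B, ∑ E, kd (fun i => rm (M i)) (fun A => u A ⊗ₜ[K] 1) E *
            (g E B ⊗ₜ[K] 1) = 0 := fun B => by
          rw [← hrow _ fun E hE => (mem_CH.1 (kd_mem_CH (U' := ⊤) _ (fun _ _ _ => trivial) u3)).2 E
            (by omega), ← iso_ext x M _ _ fun A hA => hch A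
              (by_contra fun h => hA ((mem_CH.1 u3).2 A (by omega)))]
          simp only [Algebra.TensorProduct.tmul_mul_tmul, mul_one, ← sum_tmul, hu, zero_tmul]
          exact congrFun (map_zero _) B
        have u5 : ∀ B, kd (fun i => rm (M i)) (fun A => u A ⊗ₜ[K] 1) B = 0 := fun B => by
          have := Finset.sum_congr rfl fun E (_ : E ∈ Finset.univ) =>
            congrArg (· * (g' E B ⊗ₜ[K] (1 : MvPolynomial (Fin n) K))) (u4 E)
          simp only [Finset.sum_mul, mul_assoc, Algebra.TensorProduct.tmul_mul_tmul, mul_one,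
            zero_mul, Finset.sum_const_zero] at this
          rw [Finset.sum_comm] at this
          simpa [← Finset.mul_sum, ← sum_tmul, g3, ite_tmul, ← Algebra.TensorProduct.one_def]
            using this
        funext A
        by_cases hA : A.card = m + 1
        · obtain ⟨i, hi⟩ : A.Nonempty := Finset.card_pos.1 (by omega)
          have h2 := u5 (A.erase i)
          rw [kd_apply] at h2
          have h3 := linearIndependent_iff'.1 hMi (A.erase i)ᶜ
            (fun j => ((-1 : ℤ) ^ ((A.erase i).filter (· < j)).card) • u (insert j (A.erase i)))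
            (h2 ▸ Finset.sum_congr rfl fun j _ => by
              rw [smul_assoc, P200.smul_eq_tmul_mul]; rfl) i (by simp)
          rw [Finset.insert_erase hi] at h3
          rcases neg_one_pow_eq_or ℤ ((A.erase i).filter (· < i)).card with h | h <;>
            simpa [h] using h3
        · exact u2 A hA
  obtain ⟨g, g0, g1, g2⟩ := key n
  exact ⟨g, g0, iso_inv Finset.card g g0 g1, fun c => funext fun B =>
    iso_ext x M _ c (fun A _ => g2 A (by simpa using A.card_le_univ)) B⟩

end Vale.Agent.P200B
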