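import Vale.Agent.P200B.Def2

namespace Vale.Agent.P200B

open MvPolynomial TensorProduct

theorem kk_sign {n : ℕ} {B : Finset (Fin n)} {i : Fin n} (hi : i ∉ B) (j : Fin n) :
    (-1 : ℤ) ^ ((insert i B).filter (· < j)).card =
      (if i < j then -1 else 1) * (-1) ^ (B.filter (· < j)).card := by
  rw [Finset.filter_insert]
  split_ifs with h
  · rw [Finset.card_insert_of_notMem fun h' => hi (Finset.mem_filter.1 h').1, pow_succ']
  · rw [one_mul]
theorem kd_kd {D V : Type*} [Ring D] [AddCommGroup V] [Module D V] {n : ℕ}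
    (y : Fin n → V →ₗ[D] V) (h : ∀ i j v, y i (y j v) = y j (y i v)) (c : Finset (Fin n) → V) :
    kd y (kd y c) = 0 := by
  funext B
  let F : Fin n × Fin n → V := fun p => if p.1 = p.2 then 0 else
    ((-1 : ℤ) ^ (B.filter (· < p.1)).card * (-1 : ℤ) ^ ((insert p.1 B).filter (· < p.2)).card) •
      y p.1 (y p.2 (c (insert p.2 (insert p.1 B))))
  have h1 : kd y (kd y c) B = ∑ p ∈ Bᶜ ×ˢ Bᶜ, F p := by
    rw [kd_apply, Finset.sum_product]
    refine Finset.sum_congr rfl fun i hi => ?_
    rw [kd_apply, map_sum, Finset.smul_sum, Finset.compl_insert, ← Finset.add_sum_erase _ _ hi]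
    simp only [F, if_true, zero_add]
    refine Finset.sum_congr rfl fun j hj => ?_
    rw [if_neg (Finset.mem_erase.1 hj).1.symm, map_zsmul, smul_smul]
  rw [h1]
  refine Finset.sum_involution (fun p _ => p.swap) ?_ ?_ ?_ ?_
  · rintro ⟨i, j⟩ hp
    obtain ⟨hi, hj⟩ := Finset.mem_product.1 hp
    by_cases hij : i = j
    · simp [F, hij]
    · simp only [F, Prod.swap, if_neg hij, if_neg (Ne.symm hij)]
      rw [kk_sign (Finset.mem_compl.1 hi), kk_sign (Finset.mem_compl.1 hj), h j i,
        Finset.insert_comm i j, ← add_smul]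
      rcases lt_or_gt_of_ne hij with hlt | hlt
      · rw [if_pos hlt, if_neg hlt.not_gt]
        convert zero_smul ℤ _ using 2
        ring
      · rw [if_pos hlt, if_neg hlt.not_gt]
        convert zero_smul ℤ _ using 2
        ring
  · rintro ⟨i, j⟩ _ hF he
    apply hF
    have : j = i := congrArg Prod.fst he
    simp [F, this]
  · rintro ⟨i, j⟩ hp
    obtain ⟨hi, hj⟩ := Finset.mem_product.1 hp
    exact Finset.mem_product.2 ⟨hj, hi⟩
  · rintro ⟨i, j⟩ _
    rfl

theorem kd_mem_CH {D V : Type*} [Ring D] [AddCommGroup V] [Module D V] {n : ℕ}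
    (y : Fin n → V →ₗ[D] V) {U U' : Submodule D V} (h : ∀ i, ∀ v ∈ U, y i v ∈ U') {p : ℕ}
    {c : Finset (Fin n) → V} (hc : c ∈ CH n U (p + 1)) : kd y c ∈ CH n U' p := by
  obtain ⟨h1, h2⟩ := mem_CH.1 hc
  refine mem_CH.2 ⟨fun B => ?_, fun B hB => ?_⟩
  · rw [kd_apply]
    exact sum_mem fun i _ => zsmul_mem (h i _ (h1 _)) _
  · rw [kd_apply]
    refine Finset.sum_eq_zero fun i hi => ?_
    rw [h2, map_zero, smul_zero]
    rw [Finset.card_insert_of_notMem (Finset.mem_compl.1 hi)]
    omega

theorem kd_zero_deg {D V : Type*} [Ring D] [AddCommGroup V] [Module D V] {n : ℕ}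
    (y : Fin n → V →ₗ[D] V) {U : Submodule D V} {c : Finset (Fin n) → V} (hc : c ∈ CH n U 0) :
    kd y c = 0 := by
  obtain ⟨-, h2⟩ := mem_CH.1 hc
  funext B
  rw [kd_apply]
  refine Finset.sum_eq_zero fun i hi => ?_
  rw [h2, map_zero, smul_zero]
  rw [Finset.card_insert_of_notMem (Finset.mem_compl.1 hi)]
  omega

theorem finrank_CH {D V : Type*} [DivisionRing D] [AddCommGroup V] [Module D V] (n : ℕ)
    (U : Submodule D V) [FiniteDimensional D U] (p : ℕ) :
    FiniteDimensional D (CH n U p) ∧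
      Module.finrank D (CH n U p) = n.choose p * Module.finrank D U := by
  let e : CH n U p ≃ₗ[D] ({A : Finset (Fin n) // A.card = p} → U) :=
    { toFun := fun c A => ⟨c.1 A, (mem_CH.1 c.2).1 A⟩
      map_add' := fun _ _ => rfl
      map_smul' := fun _ _ => rfl
      invFun := fun u => ⟨fun A => if h : A.card = p then (u ⟨A, h⟩ : V) else 0,
        mem_CH.2 ⟨fun A => by
          split_ifs with h
          · exact (u ⟨A, h⟩).2
          · exact zero_mem _, fun A hA => dif_neg hA⟩⟩
      left_inv := fun c => Subtype.ext (funext fun A => by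
        by_cases h : A.card = p
        · exact dif_pos h
        · exact (dif_neg h).trans ((mem_CH.1 c.2).2 A h).symm)
      right_inv := fun u => funext fun A => Subtype.ext (dif_pos A.2) }
  refine ⟨e.symm.finiteDimensional, ?_⟩
  rw [e.finrank_eq, Module.finrank_pi_fintype, Finset.sum_const, Finset.card_univ,
    Fintype.card_finset_len, Fintype.card_fin, smul_eq_mul]

end Vale.Agent.P200B
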