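import Mathlib

/-! Graded Betti numbers through the Koszul complex on the variables. -/

namespace Vale.Agent.P200B.Kos

open MvPolynomial

section general
variable {K V : Type*} [Field K] [AddCommGroup V] [Module K V] {n : ℕ}

/-- The Koszul differential of a family `y` of operators on `V`. A chain is a function on
subsets `A` of the index set (the coefficient of `e_A`), and
`v e_A ↦ ∑ i ∈ A, (-1) ^ #{i' ∈ A | i' < i} (y i v) e_{A \ i}`. -/
noncomputable def diff (y : Fin n → V →ₗ[K] V) : (Finset (Fin n) → V) →ₗ[K] (Finset (Fin n) → V) :=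
  LinearMap.pi fun B => ∑ i ∈ Bᶜ,
    ((-1 : ℤ) ^ (B.filter (· < i)).card) • (y i ∘ₗ LinearMap.proj (insert i B))

/-- The degree `j` part of the `p`-th term of the Koszul complex: the sum over subsets `A` of
size `p` of `U (j - p) e_A`, where `U d` is the degree `d` part of `V`. -/
def chains (n : ℕ) (U : ℕ → Submodule K V) (p j : ℕ) : Submodule K (Finset (Fin n) → V) :=
  Submodule.pi Set.univ fun A => if A.card = p ∧ p ≤ j then U (j - p) else ⊥

/-- Cycles. -/
noncomputable def cycles (y : Fin n → V →ₗ[K] V) (U : ℕ → Submodule K V) (p j : ℕ) :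
    Submodule K (Finset (Fin n) → V) :=
  chains n U p j ⊓ LinearMap.ker (diff y)

/-- Boundaries. -/
noncomputable def bounds (y : Fin n → V →ₗ[K] V) (U : ℕ → Submodule K V) (p j : ℕ) :
    Submodule K (Finset (Fin n) → V) :=
  (chains n U (p + 1) j).map (diff y)

end general

/-- The dimension of the quotient of `Z` by the part of `B` inside `Z`. -/
noncomputable def quotDim {K W : Type*} [Field K] [AddCommGroup W] [Module K W]
    (Z B : Submodule K W) : ℕ :=
  Module.finrank K (↥Z ⧸ B.submoduleOf Z)

/-- The dimension of the Koszul homology in homological degree `p` and internal degree `j`. -/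
noncomputable def homDim {K V : Type*} [Field K] [AddCommGroup V] [Module K V] {n : ℕ}
    (y : Fin n → V →ₗ[K] V) (U : ℕ → Submodule K V) (p j : ℕ) : ℕ :=
  quotDim (cycles y U p j) (bounds y U p j)

/-- Koszul homology of the image of the polynomial ring under `π`, on the variables. -/
noncomputable def bettiOf {K R : Type*} [Field K] [CommRing R] [Algebra K R] {n : ℕ}
    (π : MvPolynomial (Fin n) K →ₐ[K] R) (p j : ℕ) : ℕ :=
  homDim (fun i => LinearMap.mulLeft K (π (X i)))
    (fun d => (homogeneousSubmodule (Fin n) K d).map π.toLinearMap) p j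

/-- The graded Betti number `β_{p,j}(S ⧸ I)`. -/
noncomputable def betti {K : Type*} [Field K] {n : ℕ} (I : Ideal (MvPolynomial (Fin n) K))
    (p j : ℕ) : ℕ :=
  bettiOf (Ideal.Quotient.mkₐ K I) p j

end Vale.Agent.P200B.Kos
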