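import Vale.Agent.P200B.Kos
import Vale.Agent.P200B.TopB

namespace Vale.Agent.P200B

open MvPolynomial

theorem kos_eq {K : Type*} [Field K] {n : ℕ} (I : Ideal (MvPolynomial (Fin n) K)) (p j : ℕ) :
    Kos.betti I p j = betti I p j := rfl

theorem kos_le {K : Type*} [Field K] {n : ℕ} {I J : Ideal (MvPolynomial (Fin n) K)}
    (h : ∀ d, Module.finrank K (P200.ipart J d) = Module.finrank K (P200.ipart I d))
    (hz : ∀ p d, zd I p d ≤ zd J p d) (p j : ℕ) : Kos.betti I p j ≤ Kos.betti J p j := by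
  rw [kos_eq, kos_eq]
  exact betti_le h hz p j

end Vale.Agent.P200B
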