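import Vale.Agent.P200B.KK

namespace Vale.Agent.P200B

open MvPolynomial TensorProduct

theorem lin_coef {D V : Type*} [Ring D] [AddCommGroup V] [Module D V] {n : ℕ}
    {q : Sym2 (Fin n) → V} (hq : LinearIndependent D q) (w : Fin n → Fin n → D)
    (h : ∑ i, ∑ j, w i j • q s(i, j) = 0) :
    (∀ i, w i i = 0) ∧ ∀ i j, i ≠ j → w i j + w j i = 0 := by
  have h1 : ∀ z : Sym2 (Fin n),
      ∑ x ∈ Finset.univ.filter (fun x : Fin n × Fin n => s(x.1, x.2) = z), w x.1 x.2 = 0 := by
    refine Fintype.linearIndependent_iff.1 hq _ ?_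
    rw [← h, ← Finset.sum_product', Finset.univ_product_univ,
      ← Finset.sum_fiberwise Finset.univ (fun x : Fin n × Fin n => s(x.1, x.2))]
    refine Finset.sum_congr rfl fun z _ => ?_
    rw [Finset.sum_smul]
    refine Finset.sum_congr rfl fun x hx => ?_
    rw [(Finset.mem_filter.1 hx).2]
  refine ⟨fun i => ?_, fun i j hij => ?_⟩
  · have h2 := h1 s(i, i)
    have e : Finset.univ.filter (fun x : Fin n × Fin n => s(x.1, x.2) = s(i, i)) = {(i, i)} := by
      ext ⟨a, b⟩
      simp
    rwa [e, Finset.sum_singleton] at h2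
  · have h2 := h1 s(i, j)
    have e : Finset.univ.filter (fun x : Fin n × Fin n => s(x.1, x.2) = s(i, j)) =
        {(i, j), (j, i)} := by
      ext ⟨a, b⟩
      simp
    rwa [e, Finset.sum_pair (fun g => hij (congrArg Prod.fst g))] at h2

theorem lin_exact {D V : Type*} [Ring D] [AddCommGroup V] [Module D V] {n : ℕ} (e : Fin n → V)
    (he : LinearIndependent D e) (y : Fin n → V →ₗ[D] V) (q : Sym2 (Fin n) → V)
    (hq : LinearIndependent D q) (hy : ∀ i j, y i (e j) = q s(i, j)) {p : ℕ}
    {c : Finset (Fin n) → V} (hc : c ∈ CH n (Submodule.span D (Set.range e)) p)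
    (h0 : kd y c = 0) : ∃ v : Finset (Fin n) → D, (∀ A, A.card ≠ p + 1 → v A = 0) ∧
      ∀ B, c B = ∑ i ∈ Bᶜ, ((-1 : ℤ) ^ (B.filter (· < i)).card) • v (insert i B) • e i := by
  obtain ⟨hc1, hc2⟩ := mem_CH.1 hc
  choose a ha using fun A => (Submodule.mem_span_range_iff_exists_fun D).1 (hc1 A)
  have ha0 : ∀ A : Finset (Fin n), A.card ≠ p → ∀ j, a A j = 0 := fun A hA =>
    Fintype.linearIndependent_iff.1 he _ ((ha A).trans (hc2 A hA))
  have key := fun B : Finset (Fin n) => lin_coef hq
    (fun i j => if i ∈ Bᶜ then ((-1 : ℤ) ^ (B.filter (· < i)).card) • a (insert i B) j else 0) (by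
      have h1 := congrFun h0 B
      rw [kd_apply, Pi.zero_apply, ← Finset.sum_ite_mem_eq] at h1
      rw [← h1]
      refine Finset.sum_congr rfl fun i _ => ?_
      split_ifs with hi
      · rw [← ha, map_sum, Finset.smul_sum]
        refine Finset.sum_congr rfl fun j _ => ?_
        rw [map_smul, hy, smul_assoc]
      · simp)
  have hs : ∀ (k : ℕ) (x : D), ((-1 : ℤ) ^ k) • ((-1 : ℤ) ^ k) • x = x := fun k x => by
    rw [smul_smul, ← mul_pow]
    simp
  have F1 : ∀ (B : Finset (Fin n)), ∀ i ∈ B, a B i = 0 := fun B i hi => by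
    have h1 := (key (B.erase i)).1 i
    simp only [Finset.mem_compl, Finset.notMem_erase, not_false_eq_true, if_true,
      Finset.insert_erase hi] at h1
    rw [← hs _ (a B i), h1, smul_zero]
  refine ⟨fun A => if h : A.Nonempty then a (A.erase (A.min' h)) (A.min' h) else 0,
    fun A hA => ?_, fun B => ?_⟩
  · dsimp only
    split_ifs with h
    · refine ha0 _ ?_ _
      have h1 := Finset.card_erase_add_one (A.min'_mem h)
      omega
    · rfl
  · rw [← ha B, ← Finset.sum_add_sum_compl B, Finset.sum_eq_zero fun i hi => by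
      rw [F1 B i hi, zero_smul], zero_add]
    refine Finset.sum_congr rfl fun i hi => ?_
    have hiB : i ∉ B := Finset.mem_compl.1 hi
    dsimp only
    rw [← smul_assoc, dif_pos (Finset.insert_nonempty i B)]
    congr 1
    obtain ⟨m, hm⟩ : ∃ m, m = (insert i B).min' (Finset.insert_nonempty i B) := ⟨_, rfl⟩
    have hm1 : m ∈ insert i B := hm ▸ Finset.min'_mem _ _
    have hm2 : ∀ j ∈ insert i B, m ≤ j := fun j hj => hm ▸ Finset.min'_le _ _ hj
    rw [← hm]
    have hz : ∀ C : Finset (Fin n), C ⊆ insert i B → (C.filter (· < m)).card = 0 := fun C hC => by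
      rw [Finset.card_eq_zero, Finset.filter_eq_empty_iff]
      exact fun j hj => not_lt.2 (hm2 j (hC hj))
    by_cases hmi : m = i
    · subst hmi
      rw [hz B (Finset.subset_insert _ _), pow_zero, one_smul, Finset.erase_insert hiB]
    · have hmB : m ∈ B := (Finset.mem_insert.1 hm1).resolve_left hmi
      have hlt : m < i := lt_of_le_of_ne (hm2 i (Finset.mem_insert_self _ _)) hmi
      have h1 := (key (B.erase m)).2 m i hmi
      have h2 : i ∉ B.erase m := fun g => hiB (Finset.mem_of_mem_erase g)
      simp only [Finset.mem_compl, Finset.notMem_erase, not_false_eq_true, if_true, h2,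
        Finset.insert_erase hmB] at h1
      rw [hz _ ((Finset.erase_subset _ _).trans (Finset.subset_insert _ _)), pow_zero,
        one_smul] at h1
      have h3 : (B.filter (· < i)).card = ((B.erase m).filter (· < i)).card + 1 := by
        rw [Finset.filter_erase, Finset.card_erase_add_one (Finset.mem_filter.2 ⟨hmB, hlt⟩)]
      rw [h3, pow_succ, mul_neg_one, neg_smul, Finset.erase_insert_of_ne (Ne.symm hmi)]
      exact eq_neg_of_add_eq_zero_left h1

end Vale.Agent.P200B
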